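import Mathlib

/-!
Pure type systems in de Bruijn form.  Weak and strong normalization have finite character:
a specification is weakly (strongly) normalizing iff all its restrictions to finite sets of
sorts are, and the Barendregt-Geuvers-Klop implication for all specifications is equivalent to
the implication for specifications with finitely many sorts.
-/

namespace Vale.Agent.Results.P340.A_finite_core

universe u

/-- Expressions of a pure type system over an ambient type of sorts, with de Bruijn indices. -/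
inductive PExpr (σ : Type u) : Type u
  | var : ℕ → PExpr σ
  | srt : σ → PExpr σ
  | app : PExpr σ → PExpr σ → PExpr σ
  | lam : PExpr σ → PExpr σ → PExpr σ
  | pi : PExpr σ → PExpr σ → PExpr σ

variable {σ : Type u}

open PExpr

/-- Renumbering of the free variables with index at least `c`. -/
def lift (c : ℕ) : PExpr σ → PExpr σ
  | var i => if i < c then var i else var (i + 1)
  | srt s => srt s
  | app M N => app (lift c M) (lift c N)
  | lam A M => lam (lift c A) (lift (c + 1) M)
  | pi A B => pi (lift c A) (lift (c + 1) B)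

/-- Substitution of `N` for the variable of index `k`. -/
def subst (k : ℕ) (N : PExpr σ) : PExpr σ → PExpr σ
  | var i => if i < k then var i else if i = k then N else var (i - 1)
  | srt s => srt s
  | app M M' => app (subst k N M) (subst k N M')
  | lam A M => lam (subst k N A) (subst (k + 1) (lift 0 N) M)
  | pi A B => pi (subst k N A) (subst (k + 1) (lift 0 N) B)

/-- One beta step: the compatible closure of the beta rule, also inside binder domains. -/
inductive Step : PExpr σ → PExpr σ → Prop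
  | beta (A M N : PExpr σ) : Step (app (lam A M) N) (subst 0 N M)
  | appL {M M' : PExpr σ} (N : PExpr σ) : Step M M' → Step (app M N) (app M' N)
  | appR (M : PExpr σ) {N N' : PExpr σ} : Step N N' → Step (app M N) (app M N')
  | lamL {A A' : PExpr σ} (M : PExpr σ) : Step A A' → Step (lam A M) (lam A' M)
  | lamR (A : PExpr σ) {M M' : PExpr σ} : Step M M' → Step (lam A M) (lam A M')
  | piL {A A' : PExpr σ} (B : PExpr σ) : Step A A' → Step (pi A B) (pi A' B)
  | piR (A : PExpr σ) {B B' : PExpr σ} : Step B B' → Step (pi A B) (pi A B')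

/-- All sorts occurring in the expression lie in `S`. -/
def Over (S : Set σ) : PExpr σ → Prop
  | var _ => True
  | srt s => s ∈ S
  | app M N => Over S M ∧ Over S N
  | lam A M => Over S A ∧ Over S M
  | pi A B => Over S A ∧ Over S B

/-- The equivalence generated by beta steps between expressions with sorts in `S`. -/
def Conv (S : Set σ) : PExpr σ → PExpr σ → Prop :=
  Relation.EqvGen (fun M N => Over S M ∧ Over S N ∧ Step M N)

/-- A pure type specification: sorts `S` (a subset of the ambient type), axioms `A`, rules `R`. -/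
structure Spec (σ : Type u) where
  S : Set σ
  A : Set (σ × σ)
  R : Set (σ × σ × σ)
  hA : ∀ p ∈ A, p.1 ∈ S ∧ p.2 ∈ S
  hR : ∀ r ∈ R, r.1 ∈ S ∧ r.2.1 ∈ S ∧ r.2.2 ∈ S

/-- The seven typing rules.  A context is a list, its head being the last declared variable;
each declared type is read in the context of the declarations after it in the list. -/
inductive Typing (P : Spec σ) : List (PExpr σ) → PExpr σ → PExpr σ → Prop
  | ax {s₁ s₂ : σ} : (s₁, s₂) ∈ P.A → Typing P [] (srt s₁) (srt s₂)
  | hyp {Γ : List (PExpr σ)} {A : PExpr σ} {s : σ} :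
      Typing P Γ A (srt s) → Typing P (A :: Γ) (var 0) (lift 0 A)
  | weak {Γ : List (PExpr σ)} {M B A : PExpr σ} {s : σ} :
      Typing P Γ M B → Typing P Γ A (srt s) → Typing P (A :: Γ) (lift 0 M) (lift 0 B)
  | prod {Γ : List (PExpr σ)} {A B : PExpr σ} {s₁ s₂ s₃ : σ} :
      Typing P Γ A (srt s₁) → Typing P (A :: Γ) B (srt s₂) → (s₁, s₂, s₃) ∈ P.R →
      Typing P Γ (pi A B) (srt s₃)
  | abs {Γ : List (PExpr σ)} {A M B : PExpr σ} {s : σ} :
      Typing P (A :: Γ) M B → Typing P Γ (pi A B) (srt s) → Typing P Γ (lam A M) (pi A B)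
  | appl {Γ : List (PExpr σ)} {M N A B : PExpr σ} :
      Typing P Γ M (pi A B) → Typing P Γ N A → Typing P Γ (app M N) (subst 0 N B)
  | conv {Γ : List (PExpr σ)} {M A B : PExpr σ} {s : σ} :
      Typing P Γ M A → Typing P Γ B (srt s) → Conv P.S A B → Typing P Γ M B

/-- An expression is legal if it is the subject or the type of a derivable judgment. -/
def Legal (P : Spec σ) (M : PExpr σ) : Prop :=
  ∃ (Γ : List (PExpr σ)) (B : PExpr σ), Typing P Γ M B ∨ Typing P Γ B M

/-- Every legal expression reduces to a normal form. -/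
def WeaklyNormalizing (P : Spec σ) : Prop :=
  ∀ M, Legal P M → ∃ N, Relation.ReflTransGen Step M N ∧ ∀ N', ¬ Step N N'

/-- No legal expression starts an infinite reduction sequence. -/
def StronglyNormalizing (P : Spec σ) : Prop :=
  ∀ M, Legal P M → ¬ ∃ r : ℕ → PExpr σ, r 0 = M ∧ ∀ n, Step (r n) (r (n + 1))

/-- Restriction of a specification to the sorts in `F`: axioms and rules inside `F`. -/
def Spec.restrict (P : Spec σ) (F : Set σ) : Spec σ where
  S := F
  A := {p | p ∈ P.A ∧ p.1 ∈ F ∧ p.2 ∈ F}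
  R := {r | r ∈ P.R ∧ r.1 ∈ F ∧ r.2.1 ∈ F ∧ r.2.2 ∈ F}
  hA := fun _ hp => hp.2
  hR := fun _ hr => hr.2

theorem Over.mono {S T : Set σ} (h : S ⊆ T) : ∀ {M : PExpr σ}, Over S M → Over T M
  | var _, _ => trivial
  | srt _, hM => h hM
  | app _ _, hM => ⟨Over.mono h hM.1, Over.mono h hM.2⟩
  | lam _ _, hM => ⟨Over.mono h hM.1, Over.mono h hM.2⟩
  | pi _ _, hM => ⟨Over.mono h hM.1, Over.mono h hM.2⟩

theorem exists_finite_over (M : PExpr σ) (S : Set σ) (hM : Over S M) :
    ∃ F : Set σ, F.Finite ∧ F ⊆ S ∧ Over F M := by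
  induction M with
  | var i => exact ⟨∅, Set.finite_empty, Set.empty_subset _, trivial⟩
  | srt s =>
      exact ⟨{s}, Set.finite_singleton s, Set.singleton_subset_iff.2 hM, rfl⟩
  | app M N ihM ihN =>
      obtain ⟨F, hF, hFS, hF'⟩ := ihM hM.1
      obtain ⟨G, hG, hGS, hG'⟩ := ihN hM.2
      exact ⟨F ∪ G, hF.union hG, Set.union_subset hFS hGS,
        Over.mono Set.subset_union_left hF', Over.mono Set.subset_union_right hG'⟩
  | lam M N ihM ihN =>
      obtain ⟨F, hF, hFS, hF'⟩ := ihM hM.1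
      obtain ⟨G, hG, hGS, hG'⟩ := ihN hM.2
      exact ⟨F ∪ G, hF.union hG, Set.union_subset hFS hGS,
        Over.mono Set.subset_union_left hF', Over.mono Set.subset_union_right hG'⟩
  | pi M N ihM ihN =>
      obtain ⟨F, hF, hFS, hF'⟩ := ihM hM.1
      obtain ⟨G, hG, hGS, hG'⟩ := ihN hM.2
      exact ⟨F ∪ G, hF.union hG, Set.union_subset hFS hGS,
        Over.mono Set.subset_union_left hF', Over.mono Set.subset_union_right hG'⟩

theorem Conv.mono {S T : Set σ} (h : S ⊆ T) {A B : PExpr σ} (hc : Conv S A B) : Conv T A B := by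
  unfold Conv at hc ⊢
  induction hc with
  | rel M N hMN =>
      exact Relation.EqvGen.rel _ _ ⟨Over.mono h hMN.1, Over.mono h hMN.2.1, hMN.2.2⟩
  | refl M => exact Relation.EqvGen.refl _
  | symm M N _ ih => exact Relation.EqvGen.symm _ _ ih
  | trans M N K _ _ ih₁ ih₂ => exact Relation.EqvGen.trans _ _ _ ih₁ ih₂

theorem exists_finite_conv {S : Set σ} {A B : PExpr σ} (hc : Conv S A B) :
    ∃ F : Set σ, F.Finite ∧ F ⊆ S ∧ Conv F A B := by
  unfold Conv at hc
  induction hc with
  | rel M N h =>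
      obtain ⟨F, hF, hFS, hF'⟩ := exists_finite_over M S h.1
      obtain ⟨G, hG, hGS, hG'⟩ := exists_finite_over N S h.2.1
      exact ⟨F ∪ G, hF.union hG, Set.union_subset hFS hGS,
        Relation.EqvGen.rel _ _ ⟨Over.mono Set.subset_union_left hF',
          Over.mono Set.subset_union_right hG', h.2.2⟩⟩
  | refl M => exact ⟨∅, Set.finite_empty, Set.empty_subset _, Relation.EqvGen.refl _⟩
  | symm M N _ ih =>
      obtain ⟨F, hF, hFS, hF'⟩ := ih
      exact ⟨F, hF, hFS, Relation.EqvGen.symm _ _ hF'⟩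
  | trans M N K _ _ ih₁ ih₂ =>
      obtain ⟨F, hF, hFS, hF'⟩ := ih₁
      obtain ⟨G, hG, hGS, hG'⟩ := ih₂
      exact ⟨F ∪ G, hF.union hG, Set.union_subset hFS hGS,
        Relation.EqvGen.trans _ _ _ (Conv.mono Set.subset_union_left hF')
          (Conv.mono Set.subset_union_right hG')⟩

/-- Typing is monotone in the specification (same ambient sorts, larger sets). -/
theorem Typing.mono {P Q : Spec σ} (hS : P.S ⊆ Q.S) (hA : P.A ⊆ Q.A) (hR : P.R ⊆ Q.R)
    {Γ : List (PExpr σ)} {M B : PExpr σ} (h : Typing P Γ M B) : Typing Q Γ M B := by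
  induction h with
  | ax h => exact Typing.ax (hA h)
  | hyp _ ih => exact Typing.hyp ih
  | weak _ _ ih₁ ih₂ => exact Typing.weak ih₁ ih₂
  | prod _ _ hr ih₁ ih₂ => exact Typing.prod ih₁ ih₂ (hR hr)
  | abs _ _ ih₁ ih₂ => exact Typing.abs ih₁ ih₂
  | appl _ _ ih₁ ih₂ => exact Typing.appl ih₁ ih₂
  | conv _ _ hc ih₁ ih₂ => exact Typing.conv ih₁ ih₂ (Conv.mono hS hc)

theorem Typing.restrict_mono {P : Spec σ} {F G : Set σ} (h : F ⊆ G) {Γ : List (PExpr σ)}
    {M B : PExpr σ} (ht : Typing (P.restrict F) Γ M B) : Typing (P.restrict G) Γ M B :=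
  Typing.mono (P := P.restrict F) (Q := P.restrict G) h
    (fun _ hp => ⟨hp.1, h hp.2.1, h hp.2.2⟩)
    (fun _ hr => ⟨hr.1, h hr.2.1, h hr.2.2.1, h hr.2.2.2⟩) ht

theorem Typing.of_restrict {P : Spec σ} {F : Set σ} (hF : F ⊆ P.S) {Γ : List (PExpr σ)}
    {M B : PExpr σ} (ht : Typing (P.restrict F) Γ M B) : Typing P Γ M B :=
  Typing.mono (P := P.restrict F) (Q := P) hF (fun _ hp => hp.1) (fun _ hr => hr.1) ht

/-- Every derivation uses finitely many sorts, also along its conversions. -/
theorem Typing.exists_finite {P : Spec σ} {Γ : List (PExpr σ)} {M B : PExpr σ}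
    (h : Typing P Γ M B) :
    ∃ F : Set σ, F.Finite ∧ F ⊆ P.S ∧ Typing (P.restrict F) Γ M B := by
  induction h with
  | @ax s₁ s₂ h =>
      refine ⟨{s₁, s₂}, Set.toFinite _, ?_, Typing.ax ⟨h, by simp, by simp⟩⟩
      rintro x (rfl | rfl)
      · exact (P.hA _ h).1
      · exact (P.hA _ h).2
  | hyp _ ih =>
      obtain ⟨F, hF, hFS, hF'⟩ := ih
      exact ⟨F, hF, hFS, Typing.hyp hF'⟩
  | weak _ _ ih₁ ih₂ =>
      obtain ⟨F, hF, hFS, hF'⟩ := ih₁
      obtain ⟨G, hG, hGS, hG'⟩ := ih₂
      exact ⟨F ∪ G, hF.union hG, Set.union_subset hFS hGS,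
        Typing.weak (Typing.restrict_mono Set.subset_union_left hF')
          (Typing.restrict_mono Set.subset_union_right hG')⟩
  | @prod Γ A B s₁ s₂ s₃ _ _ hr ih₁ ih₂ =>
      obtain ⟨F, hF, hFS, hF'⟩ := ih₁
      obtain ⟨G, hG, hGS, hG'⟩ := ih₂
      have hr' := P.hR _ hr
      refine ⟨F ∪ G ∪ {s₁, s₂, s₃}, (hF.union hG).union (Set.toFinite _), ?_, ?_⟩
      · refine Set.union_subset (Set.union_subset hFS hGS) ?_
        rintro x (rfl | rfl | rfl)
        · exact hr'.1
        · exact hr'.2.1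
        · exact hr'.2.2
      · refine Typing.prod (s₁ := s₁) (s₂ := s₂) (Typing.restrict_mono ?_ hF')
          (Typing.restrict_mono ?_ hG') ⟨hr, by simp, by simp, by simp⟩
        · exact fun x hx => Or.inl (Or.inl hx)
        · exact fun x hx => Or.inl (Or.inr hx)
  | abs _ _ ih₁ ih₂ =>
      obtain ⟨F, hF, hFS, hF'⟩ := ih₁
      obtain ⟨G, hG, hGS, hG'⟩ := ih₂
      exact ⟨F ∪ G, hF.union hG, Set.union_subset hFS hGS,
        Typing.abs (Typing.restrict_mono Set.subset_union_left hF')
          (Typing.restrict_mono Set.subset_union_right hG')⟩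
  | appl _ _ ih₁ ih₂ =>
      obtain ⟨F, hF, hFS, hF'⟩ := ih₁
      obtain ⟨G, hG, hGS, hG'⟩ := ih₂
      exact ⟨F ∪ G, hF.union hG, Set.union_subset hFS hGS,
        Typing.appl (Typing.restrict_mono Set.subset_union_left hF')
          (Typing.restrict_mono Set.subset_union_right hG')⟩
  | conv _ _ hc ih₁ ih₂ =>
      obtain ⟨F, hF, hFS, hF'⟩ := ih₁
      obtain ⟨G, hG, hGS, hG'⟩ := ih₂
      obtain ⟨K, hK, hKS, hK'⟩ := exists_finite_conv hc
      refine ⟨F ∪ G ∪ K, (hF.union hG).union hK,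
        Set.union_subset (Set.union_subset hFS hGS) hKS, ?_⟩
      refine Typing.conv (Typing.restrict_mono ?_ hF') (Typing.restrict_mono ?_ hG')
        (Conv.mono Set.subset_union_right hK')
      · exact fun x hx => Or.inl (Or.inl hx)
      · exact fun x hx => Or.inl (Or.inr hx)

theorem legal_iff (P : Spec σ) (M : PExpr σ) :
    Legal P M ↔ ∃ F : Set σ, F.Finite ∧ F ⊆ P.S ∧ Legal (P.restrict F) M := by
  constructor
  · rintro ⟨Γ, B, h | h⟩
    · obtain ⟨F, hF, hFS, hF'⟩ := Typing.exists_finite h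
      exact ⟨F, hF, hFS, Γ, B, Or.inl hF'⟩
    · obtain ⟨F, hF, hFS, hF'⟩ := Typing.exists_finite h
      exact ⟨F, hF, hFS, Γ, B, Or.inr hF'⟩
  · rintro ⟨F, _, hFS, Γ, B, h | h⟩
    · exact ⟨Γ, B, Or.inl (Typing.of_restrict hFS h)⟩
    · exact ⟨Γ, B, Or.inr (Typing.of_restrict hFS h)⟩

/-- Weak and strong normalization of a pure type specification have finite character, and the
Barendregt-Geuvers-Klop implication reduces to specifications with finitely many sorts. -/
theorem result :
    (∀ (P : Spec σ) (Γ : List (PExpr σ)) (M B : PExpr σ), Typing P Γ M B ↔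
      ∃ F : Set σ, F.Finite ∧ F ⊆ P.S ∧ Typing (P.restrict F) Γ M B) ∧
    (∀ P : Spec σ, WeaklyNormalizing P ↔
      ∀ F : Set σ, F.Finite → F ⊆ P.S → WeaklyNormalizing (P.restrict F)) ∧
    (∀ P : Spec σ, StronglyNormalizing P ↔
      ∀ F : Set σ, F.Finite → F ⊆ P.S → StronglyNormalizing (P.restrict F)) ∧
    (∀ P : Spec σ, WeaklyNormalizing P → ¬ StronglyNormalizing P →
      ∃ F : Set σ, F.Finite ∧ F ⊆ P.S ∧ WeaklyNormalizing (P.restrict F) ∧
        ¬ StronglyNormalizing (P.restrict F)) ∧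
    ((∀ P : Spec σ, WeaklyNormalizing P → StronglyNormalizing P) ↔
      (∀ P : Spec σ, P.S.Finite → WeaklyNormalizing P → StronglyNormalizing P)) := by
  have hWN : ∀ P : Spec σ, WeaklyNormalizing P ↔
      ∀ F : Set σ, F.Finite → F ⊆ P.S → WeaklyNormalizing (P.restrict F) := by
    intro P
    constructor
    · intro h F _ hFS M hM
      exact h M ((legal_iff P M).2 ⟨F, ‹_›, hFS, hM⟩)
    · intro h M hM
      obtain ⟨F, hF, hFS, hM'⟩ := (legal_iff P M).1 hM
      exact h F hF hFS M hM'
  have hSN : ∀ P : Spec σ, StronglyNormalizing P ↔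
      ∀ F : Set σ, F.Finite → F ⊆ P.S → StronglyNormalizing (P.restrict F) := by
    intro P
    constructor
    · intro h F hF hFS M hM
      exact h M ((legal_iff P M).2 ⟨F, hF, hFS, hM⟩)
    · intro h M hM
      obtain ⟨F, hF, hFS, hM'⟩ := (legal_iff P M).1 hM
      exact h F hF hFS M hM'
  have hcore : ∀ P : Spec σ, WeaklyNormalizing P → ¬ StronglyNormalizing P →
      ∃ F : Set σ, F.Finite ∧ F ⊆ P.S ∧ WeaklyNormalizing (P.restrict F) ∧
        ¬ StronglyNormalizing (P.restrict F) := by
    intro P hW hS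
    by_contra hno
    refine hS ((hSN P).2 fun F hF hFS => ?_)
    by_contra hF'
    exact hno ⟨F, hF, hFS, (hWN P).1 hW F hF hFS, hF'⟩
  refine ⟨?_, hWN, hSN, hcore, ?_, ?_⟩
  · intro P Γ M B
    exact ⟨Typing.exists_finite, fun ⟨F, _, hFS, h⟩ => Typing.of_restrict hFS h⟩
  · intro h P _ hW
    exact h P hW
  · intro h P hW
    by_contra hS
    obtain ⟨F, hF, _, hW', hS'⟩ := hcore P hW hS
    exact hS' (h (P.restrict F) hF hW')

end Vale.Agent.Results.P340.A_finite_core
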