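import Vale.Agent.Lib.P340.CR

/-!
Necessary conditions on a weakly normalizing pure type system, hence on any counterexample to
the Barendregt-Geuvers-Klop implication: no legal expression solves the recursive type equation
`D = Π D. T` up to conversion, no typable expression contains a self-application of a variable,
and no legal expression unfolds forever as a tower of variables `x₀ (x₁ (x₂ ...))`.
The proofs combine the Church-Rosser theorem with uniqueness of normal forms.
-/

namespace Vale.Agent.Results.P340.B_no_recursion

open Vale.Agent.Results.P340.A_finite_core PExpr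
open Vale.Agent.Lib.P340

universe u

variable {σ : Type u}

/-- The expression has a subexpression `x x`, a variable applied to itself. -/
def ContainsSelfApp : PExpr σ → Prop
  | var _ => False
  | srt _ => False
  | app M N => (∃ i, M = var i ∧ N = var i) ∨ ContainsSelfApp M ∨ ContainsSelfApp N
  | lam A M => ContainsSelfApp A ∨ ContainsSelfApp M
  | pi A B => ContainsSelfApp A ∨ ContainsSelfApp B

theorem lift_eq_var {c i : ℕ} {M : PExpr σ} (h : lift c M = var i) :
    ∃ j, M = var j ∧ (if j < c then j else j + 1) = i := by
  cases M with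
  | var j =>
      refine ⟨j, rfl, ?_⟩
      simp only [lift] at h
      split_ifs at h ⊢ with hj
      · simpa using h
      · simpa using h
  | srt s => simp [lift] at h
  | app _ _ => simp [lift] at h
  | lam _ _ => simp [lift] at h
  | pi _ _ => simp [lift] at h

theorem contains_of_lift (M : PExpr σ) :
    ∀ c, ContainsSelfApp (lift c M) → ContainsSelfApp M := by
  induction M with
  | var i =>
      intro c h
      simp only [lift] at h
      split_ifs at h <;> simp [ContainsSelfApp] at h
  | srt s => intro c h; simp [lift, ContainsSelfApp] at h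
  | app M N ihM ihN =>
      intro c h
      simp only [lift, ContainsSelfApp] at h ⊢
      rcases h with ⟨i, h1, h2⟩ | h | h
      · left
        obtain ⟨j, rfl, hj⟩ := lift_eq_var h1
        obtain ⟨k, rfl, hk⟩ := lift_eq_var h2
        have hjk : j = k := by
          split_ifs at hj hk <;> omega
        subst hjk
        exact ⟨j, rfl, rfl⟩
      · exact Or.inr (Or.inl (ihM c h))
      · exact Or.inr (Or.inr (ihN c h))
  | lam A M ihA ihM =>
      intro c h
      simp only [lift, ContainsSelfApp] at h ⊢
      rcases h with h | h
      · exact Or.inl (ihA c h)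
      · exact Or.inr (ihM (c + 1) h)
  | pi A B ihA ihB =>
      intro c h
      simp only [lift, ContainsSelfApp] at h ⊢
      rcases h with h | h
      · exact Or.inl (ihA c h)
      · exact Or.inr (ihB (c + 1) h)

/-- A reduct that is normal is reached from every convertible expression. -/
theorem red_of_conv {X Y n : PExpr σ} (hc : Relation.EqvGen Step X Y) (hr : Red X n)
    (hn : Normal n) : Red Y n := by
  obtain ⟨C, h₁, h₂⟩ := church_rosser hc
  obtain ⟨Z, hZ₁, hZ₂⟩ := confluence hr h₁
  have hnZ : n = Z := Normal.red_eq hn hZ₁
  subst hnZ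
  exact h₂.trans hZ₂

theorem ne_pi (A : PExpr σ) : ∀ B : PExpr σ, A ≠ pi A B := by
  induction A with
  | var _ => intro B h; cases h
  | srt _ => intro B h; cases h
  | app _ _ _ _ => intro B h; cases h
  | lam _ _ _ _ => intro B h; cases h
  | pi A₁ B₁ ih₁ _ =>
      intro B h
      simp only [PExpr.pi.injEq] at h
      exact ih₁ B₁ h.1

theorem no_recursive_type {P : Spec σ} (hP : WeaklyNormalizing P) {D T : PExpr σ}
    (hD : Legal P D) : ¬ Relation.EqvGen Step D (pi D T) := by
  intro hc
  obtain ⟨n, hn, hnf⟩ := hP D hD
  have hnf' : Normal n := hnf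
  obtain ⟨A', B', rfl, hA', _⟩ := red_pi_inv (red_of_conv hc hn hnf')
  exact ne_pi A' B' (normal_unique (Normal.pi_left hnf') hnf' hA' hn)

theorem typing_no_self {P : Spec σ} (hP : WeaklyNormalizing P) {Γ : List (PExpr σ)}
    {M C : PExpr σ} (h : Typing P Γ M C) : ¬ ContainsSelfApp M := by
  induction h with
  | ax _ => simp [ContainsSelfApp]
  | hyp _ _ => simp [ContainsSelfApp]
  | weak _ _ ih₁ _ => exact fun h => ih₁ (contains_of_lift _ 0 h)
  | prod _ _ _ ih₁ ih₂ =>
      intro h
      rcases h with h | h
      · exact ih₁ h
      · exact ih₂ h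
  | abs _ _ ih₁ ih₂ =>
      intro h
      rcases h with h | h
      · exact ih₂ (Or.inl h)
      · exact ih₁ h
  | @appl Γ M N A B h₁ h₂ ih₁ ih₂ =>
      intro h
      rcases h with ⟨i, rfl, rfl⟩ | h | h
      · obtain ⟨D₁, hD₁, c₁⟩ := var_gen h₁ i rfl
        obtain ⟨D₂, hD₂, c₂⟩ := var_gen h₂ i rfl
        have hDD : D₁ = D₂ := by
          rw [hD₁] at hD₂
          exact Option.some.inj hD₂
        subst hDD
        exact no_recursive_type hP ⟨Γ, var i, Or.inr h₂⟩
          (Relation.EqvGen.trans _ _ _ c₂ (Relation.EqvGen.symm _ _ c₁))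
      · exact ih₁ h
      · exact ih₂ h
  | conv _ _ _ ih₁ _ => exact ih₁

theorem no_tower (n : PExpr σ) : Normal n → ∀ (E : ℕ → PExpr σ) (i : ℕ → ℕ), Red (E 0) n →
    ¬ ∀ m, Relation.EqvGen Step (E m) (app (var (i m)) (E (m + 1))) := by
  induction n with
  | var j =>
      intro hn E i hr hl
      obtain ⟨B', he, _⟩ := red_app_var_inv (red_of_conv (hl 0) hr hn)
      cases he
  | srt s =>
      intro hn E i hr hl
      obtain ⟨B', he, _⟩ := red_app_var_inv (red_of_conv (hl 0) hr hn)
      cases he
  | lam A M _ _ =>
      intro hn E i hr hl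
      obtain ⟨B', he, _⟩ := red_app_var_inv (red_of_conv (hl 0) hr hn)
      cases he
  | pi A M _ _ =>
      intro hn E i hr hl
      obtain ⟨B', he, _⟩ := red_app_var_inv (red_of_conv (hl 0) hr hn)
      cases he
  | app L R _ ihR =>
      intro hn E i hr hl
      obtain ⟨B', he, hB'⟩ := red_app_var_inv (red_of_conv (hl 0) hr hn)
      simp only [PExpr.app.injEq] at he
      obtain ⟨rfl, rfl⟩ := he
      exact ihR (Normal.app_right hn) (fun m => E (m + 1)) (fun m => i (m + 1)) hB'
        (fun m => hl (m + 1))

/-- In a weakly normalizing pure type system: (1) no legal `D` is convertible with `Π D. T`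
(no recursive types, so no type of the shape `D = D → T` and no retract of that shape by
conversion); (2) no typable expression contains a self-application `x x` of a variable;
(3) no legal expression is the start of a sequence with `E n` convertible to `xₙ (E (n + 1))`,
for variables `xₙ` (no looping expression at variables, in particular no `E` convertible to
`x E`). -/
theorem result (P : Spec σ) (hP : WeaklyNormalizing P) :
    (∀ D T : PExpr σ, Legal P D → ¬ Relation.EqvGen Step D (pi D T)) ∧
    (∀ (Γ : List (PExpr σ)) (M C : PExpr σ), Typing P Γ M C → ¬ ContainsSelfApp M) ∧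
    (∀ (E : ℕ → PExpr σ) (i : ℕ → ℕ), Legal P (E 0) →
      ¬ ∀ n, Relation.EqvGen Step (E n) (app (var (i n)) (E (n + 1)))) := by
  refine ⟨fun D T hD => no_recursive_type hP hD, fun Γ M C h => typing_no_self hP h, ?_⟩
  intro E i hE
  obtain ⟨n, hn, hnf⟩ := hP _ hE
  exact no_tower n hnf E i hn

end Vale.Agent.Results.P340.B_no_recursion
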